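import Vale.Agent.P064P.Wrapper

/-!
# The threshold of containment against the expectation threshold
-/

set_option linter.unusedSectionVars false
set_option linter.unusedVariables false
set_option linter.unusedDecidableInType false
set_option linter.unusedFintypeInType false

open Finset
open scoped Classical Nat

namespace Vale.Agent.P064P

noncomputable section

/-- The threshold `p_c(n,H)`: the least `p` in `[0,1]` such that `G(n,p)` contains a copy of `H`
with probability at least `1/2`. -/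
def pcrit (n : ℕ) {V : Type} [Fintype V] (H : SimpleGraph V) : ℝ :=
  sInf {p : ℝ | 0 ≤ p ∧ p ≤ 1 ∧ 1 / 2 ≤ gnpProb n p (fun G => 0 < G.copyCount H)}

/-- The expectation threshold `p_E(n,H)`: the least `p` in `[0,1]` such that the expected number
`N(K_n,F) p ^ e(F)` of copies of `F` in `G(n,p)` is at least `1/2` for every subgraph `F` of `H`. -/
def pexp (n : ℕ) {V : Type} [Fintype V] (H : SimpleGraph V) : ℝ :=
  sInf {p : ℝ | 0 ≤ p ∧ p ≤ 1 ∧ ∀ F : H.Subgraph,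
    (1 / 2 : ℝ) ≤ ((⊤ : SimpleGraph (Fin n)).copyCount F.coe : ℝ) * p ^ F.coe.edgeSet.ncard}

variable {n : ℕ} {V : Type} [Fintype V]

lemma one_mem_exp (H : SimpleGraph V) (hV : Fintype.card V ≤ n) :
    (1 : ℝ) ∈ {p : ℝ | 0 ≤ p ∧ p ≤ 1 ∧ ∀ F : H.Subgraph,
      (1 / 2 : ℝ) ≤ ((⊤ : SimpleGraph (Fin n)).copyCount F.coe : ℝ) * p ^ F.coe.edgeSet.ncard} := by
  refine ⟨zero_le_one, le_refl _, ?_⟩
  intro F
  rw [one_pow, mul_one]
  obtain ⟨ι⟩ := Function.Embedding.nonempty_of_card_le (α := V) (β := Fin n)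
    (by rw [Fintype.card_fin]; exact hV)
  have h1 : 0 < (⊤ : SimpleGraph (Fin n)).copyCount F.coe := by
    rw [SimpleGraph.copyCount_pos]
    refine ⟨⟨⟨fun v => ι v.1, ?_⟩, ?_⟩⟩
    · intro u v huv
      simp only [SimpleGraph.top_adj]
      intro h
      exact huv.ne (Subtype.ext (ι.injective h))
    · intro u v huv
      exact Subtype.ext (ι.injective huv)
  have h2 : (1 : ℝ) ≤ ((⊤ : SimpleGraph (Fin n)).copyCount F.coe : ℝ) := by exact_mod_cast h1
  linarith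

/-- A spread inequality with loss `L` gives the threshold bound with loss `16 L (log₂ C(n,2) + 1)`. -/
theorem pcrit_le_of_spread (H : SimpleGraph V) (hV : Fintype.card V ≤ n) {L : ℝ} (hL : 0 < L)
    (hspr : ∀ q : ℝ, 0 ≤ q → (∀ F : H.Subgraph,
        (1 / 2 : ℝ) ≤ ((⊤ : SimpleGraph (Fin n)).copyCount F.coe : ℝ) * q ^ F.coe.edgeSet.ncard) →
      ∀ (W : Type) [Fintype W] (F : SimpleGraph W),
        (H.copyCount F : ℝ) ≤
          ((⊤ : SimpleGraph (Fin n)).copyCount F : ℝ) * (min 1 (L * q)) ^ F.edgeSet.ncard) :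
    pcrit n H ≤ 16 * L * ((Nat.log 2 (n.choose 2) : ℝ) + 1) * pexp n H := by
  set R : ℝ := (Nat.log 2 (n.choose 2) : ℝ) + 1 with hR
  have hR1 : 1 ≤ R := by
    have : (0 : ℝ) ≤ (Nat.log 2 (n.choose 2) : ℝ) := Nat.cast_nonneg _
    rw [hR]
    linarith
  set D : ℝ := 16 * L * R with hD
  have hDpos : 0 < D := by
    rw [hD]
    positivity
  have hbdd : BddBelow {p : ℝ | 0 ≤ p ∧ p ≤ 1 ∧ 1 / 2 ≤ gnpProb n p (fun G => 0 < G.copyCount H)} :=
    ⟨0, fun p hp => hp.1⟩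
  have hmem : ∀ q ∈ {p : ℝ | 0 ≤ p ∧ p ≤ 1 ∧ ∀ F : H.Subgraph,
      (1 / 2 : ℝ) ≤ ((⊤ : SimpleGraph (Fin n)).copyCount F.coe : ℝ) * p ^ F.coe.edgeSet.ncard},
      pcrit n H ≤ D * q := by
    rintro q ⟨hq0, hq1, hq⟩
    have hp0 : 0 ≤ min 1 (D * q) := le_min zero_le_one (mul_nonneg hDpos.le hq0)
    have hmem' : min 1 (D * q) ∈
        {p : ℝ | 0 ≤ p ∧ p ≤ 1 ∧ 1 / 2 ≤ gnpProb n p (fun G => 0 < G.copyCount H)} := by
      refine ⟨hp0, min_le_left _ _, ?_⟩
      apply prob_of_spread H hV (Q := min 1 (L * q)) (le_min zero_le_one (mul_nonneg hL.le hq0))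
        (hspr q hq0 hq) (min_le_left _ _)
      apply min_le_min le_rfl
      rw [← hR, hD]
      have h1 : min 1 (L * q) ≤ L * q := min_le_right _ _
      have h2 : 16 * min 1 (L * q) * R ≤ 16 * (L * q) * R := by
        apply mul_le_mul_of_nonneg_right _ (by linarith)
        linarith
      calc _ ≤ _ := h2
        _ = _ := by ring
    exact (csInf_le hbdd hmem').trans (min_le_right _ _)
  unfold pexp
  have hdiv : pcrit n H / D ≤ sInf {p : ℝ | 0 ≤ p ∧ p ≤ 1 ∧ ∀ F : H.Subgraph,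
      (1 / 2 : ℝ) ≤ ((⊤ : SimpleGraph (Fin n)).copyCount F.coe : ℝ) * p ^ F.coe.edgeSet.ncard} := by
    apply le_csInf ⟨1, one_mem_exp H hV⟩
    intro q hq
    rw [div_le_iff₀ hDpos]
    linarith [hmem q hq]
  rwa [div_le_iff₀ hDpos, mul_comm] at hdiv

lemma log_count_le {n : ℕ} (hn : 2 ≤ n) :
    (Nat.log 2 (n.choose 2) : ℝ) + 1 ≤ 5 * Real.log n := by
  have hn' : (2 : ℝ) ≤ n := by exact_mod_cast hn
  have hlog2 : Real.log 2 ≤ Real.log n := Real.log_le_log (by norm_num) hn'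
  have h1 := Real.log_two_gt_d9
  have hm : n.choose 2 ≠ 0 := by
    have := Nat.choose_pos hn
    omega
  have hm2 : n.choose 2 ≤ n ^ 2 := by
    rw [Nat.choose_two_right]
    calc n * (n - 1) / 2 ≤ n * (n - 1) := Nat.div_le_self _ _
      _ ≤ n * n := Nat.mul_le_mul_left _ (by omega)
      _ = n ^ 2 := (sq n).symm
  have h2 : 2 ^ Nat.log 2 (n.choose 2) ≤ n ^ 2 := (Nat.pow_log_le_self 2 hm).trans hm2
  have h3 : (2 : ℝ) ^ Nat.log 2 (n.choose 2) ≤ (n : ℝ) ^ 2 := by exact_mod_cast h2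
  have h4 : (Nat.log 2 (n.choose 2) : ℝ) * Real.log 2 ≤ 2 * Real.log n := by
    have h5 := Real.log_le_log (by positivity) h3
    rwa [Real.log_pow, Real.log_pow] at h5
  have hk : (0 : ℝ) ≤ (Nat.log 2 (n.choose 2) : ℝ) := Nat.cast_nonneg _
  nlinarith

end

end Vale.Agent.P064P
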