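import Mathlib

/-!
# The spread lemma

A direct form of the spread lemma of Frankston, Kahn, Narayanan and Park, in the encoding style of
Rao, with a binomial random subset: if a probability weight `μ` on subsets of size at most `ℓ` of a
finite set satisfies `μ {S ⊇ T} ≤ a ^ |T|` for all nonempty `T`, then a random subset of density
`16 a (log₂ ℓ + 1)` contains a set of positive weight with probability at least `1/2`.
-/

set_option linter.unusedSectionVars false
set_option linter.unusedVariables false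
set_option linter.unusedDecidableInType false
set_option linter.unusedFintypeInType false

open Finset
open scoped Classical

namespace Vale.Agent.P064P

noncomputable section

variable {X : Type*} [Fintype X]

/-- The probability that a random subset of density `p` equals `W`. -/
def bin (p : ℝ) (W : Finset X) : ℝ := p ^ W.card * (1 - p) ^ (Fintype.card X - W.card)

lemma bin_nonneg {p : ℝ} (h0 : 0 ≤ p) (h1 : p ≤ 1) (W : Finset X) : 0 ≤ bin p W := by
  unfold bin
  exact mul_nonneg (pow_nonneg h0 _) (pow_nonneg (by linarith) _)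

lemma bin_sum (p : ℝ) : ∑ W : Finset X, bin p W = 1 := by
  unfold bin
  rw [Fintype.sum_pow_mul_eq_add_pow]
  simp

lemma bin_inner (b : ℝ) {W Z : Finset X} (h : W ⊆ Z) :
    ∑ W₂ ∈ univ.filter (fun W₂ => W ∪ W₂ = Z), bin b W₂ =
      b ^ (Z.card - W.card) * (1 - b) ^ (Fintype.card X - Z.card) := by
  have hsum : ∑ V ∈ W.powerset, b ^ V.card * (1 - b) ^ (W.card - V.card) = 1 := by
    rw [Finset.sum_pow_mul_eq_add_pow]
    simp
  have hZ : Z.card ≤ Fintype.card X := Finset.card_le_univ Z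
  have hWZ : W.card ≤ Z.card := Finset.card_le_card h
  have key : ∑ W₂ ∈ univ.filter (fun W₂ => W ∪ W₂ = Z), bin b W₂ =
      ∑ V ∈ W.powerset, (b ^ (Z.card - W.card) * (1 - b) ^ (Fintype.card X - Z.card)) *
        (b ^ V.card * (1 - b) ^ (W.card - V.card)) := by
    refine Finset.sum_nbij' (fun W₂ => W₂ ∩ W) (fun V => (Z \ W) ∪ V) ?_ ?_ ?_ ?_ ?_
    · intro W₂ _
      exact Finset.mem_powerset.mpr Finset.inter_subset_right
    · intro V hV
      have hV' := Finset.mem_powerset.mp hV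
      refine Finset.mem_filter.mpr ⟨Finset.mem_univ _, ?_⟩
      ext x
      simp only [Finset.mem_union, Finset.mem_sdiff]
      constructor
      · rintro (h1 | h1 | h1)
        · exact h h1
        · exact h1.1
        · exact h (hV' h1)
      · intro h1
        by_cases h2 : x ∈ W
        · exact Or.inl h2
        · exact Or.inr (Or.inl ⟨h1, h2⟩)
    · intro W₂ hW₂
      have hW₂' : W ∪ W₂ = Z := (Finset.mem_filter.mp hW₂).2
      ext x
      simp only [Finset.mem_union, Finset.mem_sdiff, Finset.mem_inter]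
      constructor
      · rintro (⟨h1, h2⟩ | ⟨h1, _⟩)
        · rw [← hW₂'] at h1
          rcases Finset.mem_union.mp h1 with h3 | h3
          · exact absurd h3 h2
          · exact h3
        · exact h1
      · intro h1
        by_cases h2 : x ∈ W
        · exact Or.inr ⟨h1, h2⟩
        · refine Or.inl ⟨?_, h2⟩
          rw [← hW₂']
          exact Finset.mem_union_right _ h1
    · intro V hV
      have hV' := Finset.mem_powerset.mp hV
      ext x
      simp only [Finset.mem_union, Finset.mem_sdiff, Finset.mem_inter]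
      constructor
      · rintro ⟨h1 | h1, h2⟩
        · exact absurd h2 h1.2
        · exact h1
      · intro h1
        exact ⟨Or.inr h1, hV' h1⟩
    · intro W₂ hW₂
      have hW₂' : W ∪ W₂ = Z := (Finset.mem_filter.mp hW₂).2
      have h1 : W₂.card = (Z.card - W.card) + (W₂ ∩ W).card := by
        have h2 : (W₂ \ W) = Z \ W := by
          rw [← hW₂']
          ext x
          simp only [Finset.mem_union, Finset.mem_sdiff]
          tauto
        have h3 := Finset.card_sdiff_add_card_inter W₂ W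
        have h4 : (Z \ W).card = Z.card - W.card := Finset.card_sdiff_of_subset h
        rw [h2, h4] at h3
        omega
      have h5 : (W₂ ∩ W).card ≤ W.card := Finset.card_le_card Finset.inter_subset_right
      have h6 : Fintype.card X - W₂.card = (Fintype.card X - Z.card) + (W.card - (W₂ ∩ W).card) := by
        omega
      unfold bin
      rw [h6]
      nth_rewrite 1 [h1]
      rw [pow_add, pow_add]
      ring
  rw [key, ← Finset.mul_sum, hsum, mul_one]

lemma bin_fiber (a b : ℝ) (Z : Finset X) :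
    ∑ P ∈ (univ : Finset (Finset X × Finset X)).filter (fun P => P.1 ∪ P.2 = Z),
      bin a P.1 * bin b P.2 = bin (a + b - a * b) Z := by
  have h1 : ∑ P ∈ (univ : Finset (Finset X × Finset X)).filter (fun P => P.1 ∪ P.2 = Z),
      bin a P.1 * bin b P.2 = ∑ W ∈ Z.powerset, bin a W *
        ∑ W₂ ∈ univ.filter (fun W₂ => W ∪ W₂ = Z), bin b W₂ := by
    rw [Finset.sum_filter, ← Finset.univ_product_univ, Finset.sum_product]
    have h3 : ∀ W : Finset X, (∑ W₂ : Finset X, if W ∪ W₂ = Z then bin a W * bin b W₂ else 0) =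
        bin a W * ∑ W₂ ∈ univ.filter (fun W₂ => W ∪ W₂ = Z), bin b W₂ := by
      intro W
      rw [Finset.mul_sum, Finset.sum_filter]
    simp only [h3]
    symm
    apply Finset.sum_subset (Finset.subset_univ _)
    intro W _ hW
    have h4 : univ.filter (fun W₂ => W ∪ W₂ = Z) = ∅ := by
      apply Finset.filter_eq_empty_iff.mpr
      intro W₂ _ h2
      apply hW
      rw [Finset.mem_powerset, ← h2]
      exact Finset.subset_union_left
    rw [h4, Finset.sum_empty, mul_zero]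
  rw [h1]
  have hZ : Z.card ≤ Fintype.card X := Finset.card_le_univ Z
  have h2 : ∀ W ∈ Z.powerset, bin a W * ∑ W₂ ∈ univ.filter (fun W₂ => W ∪ W₂ = Z), bin b W₂ =
      ((1 - a) * (1 - b)) ^ (Fintype.card X - Z.card) *
        (a ^ W.card * ((1 - a) * b) ^ (Z.card - W.card)) := by
    intro W hW
    have hW' := Finset.mem_powerset.mp hW
    have hWZ : W.card ≤ Z.card := Finset.card_le_card hW'
    rw [bin_inner b hW']
    unfold bin
    have h3 : Fintype.card X - W.card = (Fintype.card X - Z.card) + (Z.card - W.card) := by omega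
    rw [h3, pow_add, mul_pow, mul_pow]
    ring
  rw [Finset.sum_congr rfl h2, ← Finset.mul_sum, Finset.sum_pow_mul_eq_add_pow]
  unfold bin
  have h4 : a + (1 - a) * b = a + b - a * b := by ring
  have h5 : (1 - a) * (1 - b) = 1 - (a + b - a * b) := by ring
  rw [h4, h5]
  ring

lemma bin_union (a b : ℝ) (f : Finset X → ℝ) :
    ∑ W₁ : Finset X, ∑ W₂ : Finset X, bin a W₁ * bin b W₂ * f (W₁ ∪ W₂) =
      ∑ Z : Finset X, bin (a + b - a * b) Z * f Z := by
  have h1 : ∀ Z : Finset X, bin (a + b - a * b) Z * f Z =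
      ∑ P ∈ (univ : Finset (Finset X × Finset X)).filter (fun P => P.1 ∪ P.2 = Z),
        bin a P.1 * bin b P.2 * f (P.1 ∪ P.2) := by
    intro Z
    rw [← bin_fiber, Finset.sum_mul]
    apply Finset.sum_congr rfl
    intro P hP
    rw [(Finset.mem_filter.mp hP).2]
  simp_rw [h1]
  rw [Finset.sum_fiberwise, ← Finset.univ_product_univ, Finset.sum_product]

/-- Monotonicity of the probability of an increasing event in the density. -/
lemma bin_mono {r p : ℝ} (hr : 0 ≤ r) (hrp : r ≤ p) (hp : p ≤ 1) (hr1 : r < 1)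
    (A : Finset X → Prop) (hA : ∀ W W', W ⊆ W' → A W → A W') :
    ∑ W : Finset X, bin r W * (if A W then 1 else 0) ≤
      ∑ W : Finset X, bin p W * (if A W then 1 else 0) := by
  set x := (p - r) / (1 - r) with hx
  have h1r : 0 < 1 - r := by linarith
  have hx0 : 0 ≤ x := div_nonneg (by linarith) h1r.le
  have hx1 : x ≤ 1 := by
    rw [hx, div_le_one h1r]
    linarith
  have hpx : r + x - r * x = p := by
    rw [hx]
    field_simp
    ring
  rw [← hpx, ← bin_union]
  apply Finset.sum_le_sum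
  intro W₁ _
  have h2 : bin r W₁ * (if A W₁ then (1 : ℝ) else 0) =
      ∑ W₂ : Finset X, bin r W₁ * bin x W₂ * (if A W₁ then 1 else 0) := by
    rw [← Finset.sum_mul, ← Finset.mul_sum, bin_sum, mul_one]
  rw [h2]
  apply Finset.sum_le_sum
  intro W₂ _
  apply mul_le_mul_of_nonneg_left _ (mul_nonneg (bin_nonneg hr (hrp.trans hp) _) (bin_nonneg hx0 hx1 _))
  by_cases h3 : A W₁
  · rw [if_pos h3, if_pos (hA _ _ Finset.subset_union_left h3)]
  · rw [if_neg h3]
    split_ifs <;> norm_num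

/-! ### Fragments -/

variable (μ : Finset X → ℝ)

/-- The set `T` is a smallest trace outside `W` of a member of the family inside `W ∪ S`. -/
def IsFrag (W S T : Finset X) : Prop :=
  (∃ S', μ S' ≠ 0 ∧ S' ⊆ W ∪ S ∧ S' \ W = T) ∧
    ∀ S'', μ S'' ≠ 0 → S'' ⊆ W ∪ S → T.card ≤ (S'' \ W).card

lemma exists_isFrag (W S : Finset X) (hS : μ S ≠ 0) : ∃ T, IsFrag μ W S T := by
  have hne : ((univ : Finset (Finset X)).filter (fun S' => μ S' ≠ 0 ∧ S' ⊆ W ∪ S)).Nonempty :=
    ⟨S, Finset.mem_filter.mpr ⟨Finset.mem_univ _, hS, Finset.subset_union_right⟩⟩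
  obtain ⟨S₀, hS₀, hmin⟩ := Finset.exists_min_image _ (fun S' => (S' \ W).card) hne
  have hS₀' := (Finset.mem_filter.mp hS₀).2
  refine ⟨S₀ \ W, ⟨S₀, hS₀'.1, hS₀'.2, rfl⟩, ?_⟩
  intro S'' h1 h2
  exact hmin S'' (Finset.mem_filter.mpr ⟨Finset.mem_univ _, h1, h2⟩)

/-- The fragment of `S` over `W`. -/
def frag (W S : Finset X) : Finset X :=
  if h : ∃ T, IsFrag μ W S T then h.choose else ∅

lemma frag_spec (W S : Finset X) (hS : μ S ≠ 0) : IsFrag μ W S (frag μ W S) := by
  have h := exists_isFrag μ W S hS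
  unfold frag
  rw [dif_pos h]
  exact h.choose_spec

lemma frag_subset (W S : Finset X) (hS : μ S ≠ 0) : frag μ W S ⊆ S := by
  obtain ⟨⟨S', _, h2, h3⟩, _⟩ := frag_spec μ W S hS
  rw [← h3]
  intro x hx
  have hx' := Finset.mem_sdiff.mp hx
  rcases Finset.mem_union.mp (h2 hx'.1) with h4 | h4
  · exact absurd h4 hx'.2
  · exact h4

lemma hit_of_frag (W S W₂ : Finset X) (hS : μ S ≠ 0) (h : frag μ W S ⊆ W₂) :
    ∃ S', μ S' ≠ 0 ∧ S' ⊆ W ∪ W₂ := by
  obtain ⟨⟨S', h1, h2, h3⟩, _⟩ := frag_spec μ W S hS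
  refine ⟨S', h1, ?_⟩
  intro x hx
  by_cases hxW : x ∈ W
  · exact Finset.mem_union_left _ hxW
  · apply Finset.mem_union_right
    apply h
    rw [← h3]
    exact Finset.mem_sdiff.mpr ⟨hx, hxW⟩

/-- A fixed member of the family inside `Z`. -/
def ch (Z : Finset X) : Finset X :=
  if h : ∃ S, μ S ≠ 0 ∧ S ⊆ Z then h.choose else ∅

lemma ch_spec (Z : Finset X) (h : ∃ S, μ S ≠ 0 ∧ S ⊆ Z) : μ (ch μ Z) ≠ 0 ∧ ch μ Z ⊆ Z := by
  unfold ch
  rw [dif_pos h]
  exact h.choose_spec

lemma ch_card_le {ℓ : ℕ} (hsize : ∀ S, μ S ≠ 0 → S.card ≤ ℓ) (Z : Finset X) :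
    (ch μ Z).card ≤ ℓ := by
  by_cases h : ∃ S, μ S ≠ 0 ∧ S ⊆ Z
  · exact hsize _ (ch_spec μ Z h).1
  · unfold ch
    rw [dif_neg h]
    simp

lemma ch_subset (Z : Finset X) : ch μ Z ⊆ Z := by
  by_cases h : ∃ S, μ S ≠ 0 ∧ S ⊆ Z
  · exact (ch_spec μ Z h).2
  · unfold ch
    rw [dif_neg h]
    simp

/-- The encoding: the fragment is recovered from `W ∪ T`. -/
lemma frag_sub_ch (W S : Finset X) (hS : μ S ≠ 0) :
    frag μ W S ⊆ ch μ (W ∪ frag μ W S) := by
  have hspec := frag_spec μ W S hS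
  obtain ⟨⟨S', h1, h2, h3⟩, hmin⟩ := hspec
  set T := frag μ W S with hT
  have hTS : T ⊆ S := frag_subset μ W S hS
  have hS'Z : S' ⊆ W ∪ T := by
    intro x hx
    by_cases hxW : x ∈ W
    · exact Finset.mem_union_left _ hxW
    · apply Finset.mem_union_right
      rw [← h3]
      exact Finset.mem_sdiff.mpr ⟨hx, hxW⟩
  obtain ⟨h4, h5⟩ := ch_spec μ (W ∪ T) ⟨S', h1, hS'Z⟩
  have h6 : ch μ (W ∪ T) ⊆ W ∪ S := h5.trans (Finset.union_subset_union_right hTS)
  have h7 := hmin _ h4 h6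
  have h8 : ch μ (W ∪ T) \ W ⊆ T := by
    intro x hx
    have hx' := Finset.mem_sdiff.mp hx
    rcases Finset.mem_union.mp (h5 hx'.1) with h9 | h9
    · exact absurd h9 hx'.2
    · exact h9
  have h10 : ch μ (W ∪ T) \ W = T := Finset.eq_of_subset_of_card_le h8 h7
  intro x hx
  have hx2 : x ∈ ch μ (W ∪ T) \ W := by
    rw [h10]
    exact hx
  exact (Finset.mem_sdiff.mp hx2).1

lemma frag_disjoint (W S : Finset X) (hS : μ S ≠ 0) : Disjoint W (frag μ W S) := by
  obtain ⟨⟨S', _, _, h3⟩, _⟩ := frag_spec μ W S hS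
  rw [← h3]
  exact Finset.disjoint_sdiff

/-- The mass of sets with a large fragment over `W`. -/
def bad (ℓ : ℕ) (W : Finset X) : ℝ :=
  ∑ S ∈ univ.filter (fun S => μ S ≠ 0 ∧ ℓ < 2 * (frag μ W S).card), μ S

lemma bin_sdiff_mul_le {δ a : ℝ} (ha : 0 ≤ a) (hδ : δ = 16 * a) (hδ1 : δ ≤ 1) {Z T : Finset X}
    (h : T ⊆ Z) : bin δ (Z \ T) * a ^ T.card ≤ bin δ Z * (1 / 16) ^ T.card := by
  have hδ0 : 0 ≤ δ := by rw [hδ]; positivity
  have hZ : Z.card ≤ Fintype.card X := Finset.card_le_univ Z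
  have hT : T.card ≤ Z.card := Finset.card_le_card h
  unfold bin
  rw [Finset.card_sdiff_of_subset h]
  have h1 : Fintype.card X - (Z.card - T.card) = (Fintype.card X - Z.card) + T.card := by omega
  rw [h1, pow_add]
  have h2 : (1 - δ) ^ T.card ≤ 1 := pow_le_one₀ (by linarith) (by linarith)
  have h3 : δ ^ Z.card = δ ^ (Z.card - T.card) * δ ^ T.card := by
    rw [← pow_add]
    congr 1
    omega
  rw [h3]
  have h4 : δ ^ T.card * (1 / 16) ^ T.card = a ^ T.card := by
    rw [← mul_pow, hδ]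
    congr 1
    ring
  have h5 : 0 ≤ δ ^ (Z.card - T.card) * (1 - δ) ^ (Fintype.card X - Z.card) * a ^ T.card := by
    have : 0 ≤ 1 - δ := by linarith
    positivity
  calc δ ^ (Z.card - T.card) * ((1 - δ) ^ (Fintype.card X - Z.card) * (1 - δ) ^ T.card) * a ^ T.card
      = (δ ^ (Z.card - T.card) * (1 - δ) ^ (Fintype.card X - Z.card) * a ^ T.card) *
          (1 - δ) ^ T.card := by ring
    _ ≤ (δ ^ (Z.card - T.card) * (1 - δ) ^ (Fintype.card X - Z.card) * a ^ T.card) * 1 :=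
        mul_le_mul_of_nonneg_left h2 h5
    _ = δ ^ (Z.card - T.card) * (δ ^ T.card * (1 / 16) ^ T.card) *
          (1 - δ) ^ (Fintype.card X - Z.card) := by rw [h4]; ring
    _ = _ := by ring

lemma sum_small {ℓ : ℕ} (B : Finset X) (hB : B.card ≤ ℓ) :
    ∑ T ∈ B.powerset.filter (fun T => ℓ < 2 * T.card), ((1 : ℝ) / 16) ^ T.card ≤ (1 / 2) ^ (ℓ + 2) := by
  have h1 : ∀ T ∈ B.powerset.filter (fun T => ℓ < 2 * T.card),
      ((1 : ℝ) / 16) ^ T.card ≤ (1 / 4) ^ (ℓ + 1) := by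
    intro T hT
    have hT' := (Finset.mem_filter.mp hT).2
    have h2 : ((1 : ℝ) / 16) ^ T.card = (1 / 4) ^ (2 * T.card) := by
      rw [pow_mul]
      norm_num
    rw [h2]
    exact pow_le_pow_of_le_one (by norm_num) (by norm_num) (by omega)
  calc _ ≤ ∑ T ∈ B.powerset.filter (fun T => ℓ < 2 * T.card), ((1 : ℝ) / 4) ^ (ℓ + 1) :=
        Finset.sum_le_sum h1
    _ = ((B.powerset.filter (fun T => ℓ < 2 * T.card)).card : ℝ) * (1 / 4) ^ (ℓ + 1) := by
        rw [Finset.sum_const, nsmul_eq_mul]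
    _ ≤ ((2 : ℝ) ^ ℓ) * (1 / 4) ^ (ℓ + 1) := by
        apply mul_le_mul_of_nonneg_right _ (by positivity)
        have h3 : (B.powerset.filter (fun T => ℓ < 2 * T.card)).card ≤ 2 ^ B.card := by
          rw [← Finset.card_powerset]
          exact Finset.card_filter_le _ _
        have h4 : 2 ^ B.card ≤ 2 ^ ℓ := Nat.pow_le_pow_right (by norm_num) hB
        exact_mod_cast h3.trans h4
    _ = (1 / 2) ^ (ℓ + 2) := by
        have : ((1 : ℝ) / 4) = (1 / 2) * (1 / 2) := by norm_num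
        rw [this, mul_pow, pow_succ ((1 : ℝ) / 2) (ℓ + 1), pow_succ ((1 : ℝ) / 2) ℓ]
        have h5 : (2 : ℝ) ^ ℓ * (1 / 2) ^ ℓ = 1 := by
          rw [← mul_pow]
          norm_num
        calc (2 : ℝ) ^ ℓ * (((1 / 2) ^ ℓ * (1 / 2)) * ((1 / 2) ^ ℓ * (1 / 2)))
            = ((2 : ℝ) ^ ℓ * (1 / 2) ^ ℓ) * ((1 / 2) ^ ℓ * (1 / 2) * (1 / 2)) := by ring
          _ = _ := by rw [h5]; ring

/-- The key lemma: the expected mass of sets with a large fragment is small. -/
lemma key_lemma {a δ : ℝ} {ℓ : ℕ} (ha : 0 ≤ a) (hδ : δ = 16 * a) (hδ1 : δ ≤ 1)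
    (hμ0 : ∀ S, 0 ≤ μ S) (hsize : ∀ S, μ S ≠ 0 → S.card ≤ ℓ)
    (hspread : ∀ T : Finset X, T.Nonempty →
      ∑ S ∈ univ.filter (fun S => T ⊆ S), μ S ≤ a ^ T.card) :
    ∑ W : Finset X, bin δ W * bad μ ℓ W ≤ (1 / 2) ^ (ℓ + 2) := by
  have hδ0 : 0 ≤ δ := by rw [hδ]; positivity
  let E : Finset (Finset X × Finset X) :=
    univ.filter (fun P => P.2 ⊆ ch μ P.1 ∧ ℓ < 2 * P.2.card)
  -- first step: for a fixed set `S`
  have h1 : ∀ S, μ S ≠ 0 →
      ∑ W ∈ univ.filter (fun W => ℓ < 2 * (frag μ W S).card), bin δ W ≤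
        ∑ P ∈ E.filter (fun P => P.2 ⊆ S), bin δ (P.1 \ P.2) := by
    intro S hS
    let g : Finset X → Finset X × Finset X := fun W => (W ∪ frag μ W S, frag μ W S)
    have hinv : ∀ W, (g W).1 \ (g W).2 = W := by
      intro W
      simp only [g]
      rw [Finset.union_sdiff_right]
      exact Finset.sdiff_eq_self_of_disjoint (frag_disjoint μ W S hS)
    have hginj : Set.InjOn g (univ.filter (fun W => ℓ < 2 * (frag μ W S).card) : Finset (Finset X)) := by
      intro W₁ _ W₂ _ h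
      rw [← hinv W₁, ← hinv W₂, h]
    calc ∑ W ∈ univ.filter (fun W => ℓ < 2 * (frag μ W S).card), bin δ W
        = ∑ W ∈ univ.filter (fun W => ℓ < 2 * (frag μ W S).card), bin δ ((g W).1 \ (g W).2) := by
          simp_rw [hinv]
      _ = ∑ P ∈ (univ.filter (fun W => ℓ < 2 * (frag μ W S).card)).image g, bin δ (P.1 \ P.2) := by
          rw [Finset.sum_image hginj]
      _ ≤ _ := by
          apply Finset.sum_le_sum_of_subset_of_nonneg
          · intro P hP
            obtain ⟨W, hW, rfl⟩ := Finset.mem_image.mp hP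
            have hW' := (Finset.mem_filter.mp hW).2
            refine Finset.mem_filter.mpr ⟨Finset.mem_filter.mpr ⟨Finset.mem_univ _, ?_, hW'⟩, ?_⟩
            · exact frag_sub_ch μ W S hS
            · exact frag_subset μ W S hS
          · intro P _ _
            exact bin_nonneg hδ0 hδ1 _
  -- second step: exchange the sums
  have h2 : ∑ W : Finset X, bin δ W * bad μ ℓ W =
      ∑ S ∈ univ.filter (fun S => μ S ≠ 0), μ S *
        ∑ W ∈ univ.filter (fun W => ℓ < 2 * (frag μ W S).card), bin δ W := by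
    unfold bad
    simp only [Finset.mul_sum, Finset.sum_filter]
    rw [Finset.sum_comm]
    apply Finset.sum_congr rfl
    intro S _
    by_cases hS : μ S ≠ 0
    · rw [if_pos hS]
      apply Finset.sum_congr rfl
      intro W _
      by_cases hW : ℓ < 2 * (frag μ W S).card
      · rw [if_pos ⟨hS, hW⟩, if_pos hW]
        ring
      · rw [if_neg (fun h => hW h.2), if_neg hW]
        ring
    · rw [if_neg hS]
      apply Finset.sum_eq_zero
      intro W _
      rw [if_neg (fun h => hS h.1)]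
      ring_nf
  rw [h2]
  have h3 : ∑ S ∈ univ.filter (fun S => μ S ≠ 0), μ S *
        ∑ W ∈ univ.filter (fun W => ℓ < 2 * (frag μ W S).card), bin δ W ≤
      ∑ S : Finset X, μ S * ∑ P ∈ E.filter (fun P => P.2 ⊆ S), bin δ (P.1 \ P.2) := by
    refine (Finset.sum_le_sum fun S hS =>
      mul_le_mul_of_nonneg_left (h1 S (Finset.mem_filter.mp hS).2) (hμ0 S)).trans ?_
    apply Finset.sum_le_sum_of_subset_of_nonneg (Finset.subset_univ _)
    intro S _ _
    exact mul_nonneg (hμ0 S) (Finset.sum_nonneg fun P _ => bin_nonneg hδ0 hδ1 _)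
  refine h3.trans ?_
  have h4 : ∑ S : Finset X, μ S * ∑ P ∈ E.filter (fun P => P.2 ⊆ S), bin δ (P.1 \ P.2) =
      ∑ P ∈ E, bin δ (P.1 \ P.2) * ∑ S ∈ univ.filter (fun S => P.2 ⊆ S), μ S := by
    simp only [Finset.mul_sum, Finset.sum_filter]
    rw [Finset.sum_comm]
    apply Finset.sum_congr rfl
    intro P _
    apply Finset.sum_congr rfl
    intro S _
    split_ifs <;> ring
  rw [h4]
  have h5 : ∀ P ∈ E, bin δ (P.1 \ P.2) * ∑ S ∈ univ.filter (fun S => P.2 ⊆ S), μ S ≤
      bin δ P.1 * (1 / 16) ^ P.2.card := by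
    intro P hP
    obtain ⟨_, h6, h7⟩ := Finset.mem_filter.mp hP
    have h8 : P.2.Nonempty := by
      rw [← Finset.card_pos]
      omega
    have h9 := hspread P.2 h8
    calc _ ≤ bin δ (P.1 \ P.2) * a ^ P.2.card :=
          mul_le_mul_of_nonneg_left h9 (bin_nonneg hδ0 hδ1 _)
      _ ≤ _ := bin_sdiff_mul_le ha hδ hδ1 (h6.trans (ch_subset μ P.1))
  refine (Finset.sum_le_sum h5).trans ?_
  have h6 : ∑ P ∈ E, bin δ P.1 * ((1 : ℝ) / 16) ^ P.2.card =
      ∑ Z : Finset X, bin δ Z * ∑ T ∈ (ch μ Z).powerset.filter (fun T => ℓ < 2 * T.card),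
        ((1 : ℝ) / 16) ^ T.card := by
    simp only [E, Finset.sum_filter, Finset.mul_sum]
    rw [← Finset.univ_product_univ, Finset.sum_product]
    apply Finset.sum_congr rfl
    intro Z _
    have h7 : ∀ T : Finset X, (if T ⊆ ch μ Z ∧ ℓ < 2 * T.card then bin δ Z * ((1 : ℝ) / 16) ^ T.card else 0) =
        (if T ∈ (ch μ Z).powerset then (if ℓ < 2 * T.card then bin δ Z * ((1 : ℝ) / 16) ^ T.card else 0) else 0) := by
      intro T
      by_cases h8 : T ⊆ ch μ Z
      · rw [if_pos (Finset.mem_powerset.mpr h8)]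
        by_cases h9 : ℓ < 2 * T.card
        · rw [if_pos ⟨h8, h9⟩, if_pos h9]
        · rw [if_neg (fun h => h9 h.2), if_neg h9]
      · rw [if_neg (fun h => h8 (Finset.mem_powerset.mp h)), if_neg (fun h => h8 h.1)]
    simp only [h7]
    rw [Finset.sum_ite_mem]
    simp
  rw [h6]
  calc _ ≤ ∑ Z : Finset X, bin δ Z * (1 / 2) ^ (ℓ + 2) := by
        apply Finset.sum_le_sum
        intro Z _
        exact mul_le_mul_of_nonneg_left (sum_small _ (ch_card_le μ hsize Z)) (bin_nonneg hδ0 hδ1 _)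
    _ = _ := by rw [← Finset.sum_mul, bin_sum, one_mul]

/-- A member of the family lies in `W`. -/
def Hit (W : Finset X) : Prop := ∃ S, μ S ≠ 0 ∧ S ⊆ W

/-- The mass of the sets with a small fragment over `W` equal to `T`. -/
def good (ℓ : ℕ) (W T : Finset X) : ℝ :=
  ∑ S ∈ (univ.filter (fun S => μ S ≠ 0 ∧ 2 * (frag μ W S).card ≤ ℓ)).filter
    (fun S => frag μ W S = T), μ S

lemma good_nonneg (hμ0 : ∀ S, 0 ≤ μ S) (ℓ : ℕ) (W T : Finset X) : 0 ≤ good μ ℓ W T :=
  Finset.sum_nonneg fun S _ => hμ0 S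

lemma bad_nonneg (hμ0 : ∀ S, 0 ≤ μ S) (ℓ : ℕ) (W : Finset X) : 0 ≤ bad μ ℓ W :=
  Finset.sum_nonneg fun S _ => hμ0 S

lemma mass_split (ℓ : ℕ) (W : Finset X) :
    ∑ S, μ S = ∑ T, good μ ℓ W T + bad μ ℓ W := by
  unfold good bad
  rw [Finset.sum_fiberwise]
  have h1 : ∑ S, μ S = ∑ S ∈ univ.filter (fun S => μ S ≠ 0), μ S := by
    symm
    apply Finset.sum_subset (Finset.subset_univ _)
    intro S _ hS
    by_contra h
    exact hS (Finset.mem_filter.mpr ⟨Finset.mem_univ _, h⟩)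
  rw [h1, ← Finset.sum_filter_add_sum_filter_not (univ.filter (fun S => μ S ≠ 0))
    (fun S => 2 * (frag μ W S).card ≤ ℓ), Finset.filter_filter, Finset.filter_filter]
  congr 1
  apply Finset.sum_congr _ (fun _ _ => rfl)
  ext S
  simp only [Finset.mem_filter, Finset.mem_univ, true_and, not_le]

lemma good_size (ℓ : ℕ) (W T : Finset X) (h : good μ ℓ W T ≠ 0) : T.card ≤ ℓ / 2 := by
  unfold good at h
  obtain ⟨S, hS, _⟩ := Finset.exists_ne_zero_of_sum_ne_zero h
  obtain ⟨h1, h2⟩ := Finset.mem_filter.mp hS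
  have h3 := (Finset.mem_filter.mp h1).2.2
  rw [h2] at h3
  omega

lemma good_hit (ℓ : ℕ) (W T W₂ : Finset X) (h : good μ ℓ W T ≠ 0) (hT : T ⊆ W₂) :
    Hit μ (W ∪ W₂) := by
  unfold good at h
  obtain ⟨S, hS, _⟩ := Finset.exists_ne_zero_of_sum_ne_zero h
  obtain ⟨h1, h2⟩ := Finset.mem_filter.mp hS
  have h3 := (Finset.mem_filter.mp h1).2.1
  exact hit_of_frag μ W S W₂ h3 (h2 ▸ hT)

lemma good_spread {a : ℝ} (hμ0 : ∀ S, 0 ≤ μ S)
    (hspread : ∀ T : Finset X, T.Nonempty →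
      ∑ S ∈ univ.filter (fun S => T ⊆ S), μ S ≤ a ^ T.card)
    (ℓ : ℕ) (W T₀ : Finset X) (hT₀ : T₀.Nonempty) :
    ∑ T ∈ univ.filter (fun T => T₀ ⊆ T), good μ ℓ W T ≤ a ^ T₀.card := by
  refine le_trans ?_ (hspread T₀ hT₀)
  unfold good
  set G := univ.filter (fun S => μ S ≠ 0 ∧ 2 * (frag μ W S).card ≤ ℓ) with hG
  have h1 : ∑ T ∈ univ.filter (fun T => T₀ ⊆ T), ∑ S ∈ G.filter (fun S => frag μ W S = T), μ S =
      ∑ S ∈ G.filter (fun S => T₀ ⊆ frag μ W S), μ S := by
    rw [← Finset.sum_fiberwise_of_maps_to (s := G.filter (fun S => T₀ ⊆ frag μ W S))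
      (t := univ.filter (fun T => T₀ ⊆ T)) (g := fun S => frag μ W S)]
    · apply Finset.sum_congr rfl
      intro T hT
      apply Finset.sum_congr _ (fun _ _ => rfl)
      ext S
      have hT' := (Finset.mem_filter.mp hT).2
      simp only [Finset.mem_filter]
      constructor
      · rintro ⟨h2, h3⟩
        exact ⟨⟨h2, h3 ▸ hT'⟩, h3⟩
      · rintro ⟨⟨h2, _⟩, h3⟩
        exact ⟨h2, h3⟩
    · intro S hS
      exact Finset.mem_filter.mpr ⟨Finset.mem_univ _, (Finset.mem_filter.mp hS).2⟩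
  rw [h1]
  apply Finset.sum_le_sum_of_subset_of_nonneg
  · intro S hS
    obtain ⟨h2, h3⟩ := Finset.mem_filter.mp hS
    have h4 := (Finset.mem_filter.mp h2).2.1
    exact Finset.mem_filter.mpr ⟨Finset.mem_univ _, h3.trans (frag_subset μ W S h4)⟩
  · intro S _ _
    exact hμ0 S

lemma zero_case {p : ℝ} (hμ0 : ∀ S, 0 ≤ μ S) (hsize : ∀ S, μ S ≠ 0 → S.card ≤ 0) :
    (∑ S, μ S) * ∑ W : Finset X, bin p W * (if Hit μ W then 0 else 1) = 0 := by
  by_cases h : ∃ S, μ S ≠ 0
  · obtain ⟨S, hS⟩ := h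
    have h1 : S = ∅ := Finset.card_eq_zero.mp (Nat.le_zero.mp (hsize S hS))
    have h2 : ∀ W : Finset X, Hit μ W := fun W => ⟨S, hS, by rw [h1]; exact Finset.empty_subset _⟩
    simp [h2]
  · push Not at h
    simp [h]

/-- The iteration. -/
theorem main_iter {a : ℝ} (ha : 0 ≤ a) (hδ1 : 16 * a ≤ 1) : ∀ (R ℓ : ℕ), ℓ < 2 ^ R →
    ∀ μ : Finset X → ℝ, (∀ S, 0 ≤ μ S) → (∀ S, μ S ≠ 0 → S.card ≤ ℓ) →
    (∀ T : Finset X, T.Nonempty → ∑ S ∈ univ.filter (fun S => T ⊆ S), μ S ≤ a ^ T.card) →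
    (∑ S, μ S) * ∑ W : Finset X, bin (1 - (1 - 16 * a) ^ R) W * (if Hit μ W then 0 else 1) ≤
      1 / 2 - (1 / 2) ^ (ℓ + 1) := by
  intro R
  induction R with
  | zero =>
    intro ℓ hℓ μ hμ0 hsize hspread
    have hℓ0 : ℓ = 0 := by simpa using hℓ
    subst hℓ0
    rw [zero_case μ hμ0 hsize]
    norm_num
  | succ R ih =>
    intro ℓ hℓ μ hμ0 hsize hspread
    rcases Nat.eq_zero_or_pos ℓ with hℓ0 | hℓ0
    · subst hℓ0
      rw [zero_case μ hμ0 hsize]
      norm_num
    set δ := 16 * a with hδ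
    have hδ0 : 0 ≤ δ := by rw [hδ]; positivity
    set r := 1 - (1 - δ) ^ R with hr
    have hx0 : 0 ≤ (1 - δ) ^ R := pow_nonneg (by linarith) _
    have hx1 : (1 - δ) ^ R ≤ 1 := pow_le_one₀ (by linarith) (by linarith)
    have hr0 : 0 ≤ r := by rw [hr]; linarith
    have hr1 : r ≤ 1 := by rw [hr]; linarith
    have hp : 1 - (1 - δ) ^ (R + 1) = δ + r - δ * r := by
      rw [hr, pow_succ]
      ring
    rw [hp, ← bin_union, Finset.mul_sum]
    have hℓ' : ℓ / 2 < 2 ^ R := by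
      rw [pow_succ] at hℓ
      omega
    have hA : ∀ W₁ : Finset X, (∑ S, μ S) * ∑ W₂ : Finset X,
          bin δ W₁ * bin r W₂ * (if Hit μ (W₁ ∪ W₂) then 0 else 1) ≤
        bin δ W₁ * ((1 / 2 - (1 / 2) ^ (ℓ / 2 + 1)) + bad μ ℓ W₁) := by
      intro W₁
      have hb := bin_nonneg hδ0 hδ1 W₁
      have h1 : ∑ W₂ : Finset X, bin δ W₁ * bin r W₂ * (if Hit μ (W₁ ∪ W₂) then 0 else 1) =
          bin δ W₁ * ∑ W₂ : Finset X, bin r W₂ * (if Hit μ (W₁ ∪ W₂) then 0 else 1) := by
        rw [Finset.mul_sum]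
        apply Finset.sum_congr rfl
        intro W₂ _
        ring
      rw [h1, mul_left_comm]
      apply mul_le_mul_of_nonneg_left _ hb
      set A := ∑ W₂ : Finset X, bin r W₂ * (if Hit μ (W₁ ∪ W₂) then (0 : ℝ) else 1) with hAdef
      set μ' := good μ ℓ W₁ with hμ'
      set A' := ∑ W₂ : Finset X, bin r W₂ * (if Hit μ' W₂ then (0 : ℝ) else 1) with hA'def
      have hA0 : 0 ≤ A := by
        apply Finset.sum_nonneg
        intro W₂ _
        apply mul_nonneg (bin_nonneg hr0 hr1 _)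
        split_ifs <;> norm_num
      have hA1 : A ≤ 1 := by
        calc A ≤ ∑ W₂ : Finset X, bin r W₂ * 1 := by
              apply Finset.sum_le_sum
              intro W₂ _
              apply mul_le_mul_of_nonneg_left _ (bin_nonneg hr0 hr1 _)
              split_ifs <;> norm_num
          _ = 1 := by simp [bin_sum]
      have hAA' : A ≤ A' := by
        apply Finset.sum_le_sum
        intro W₂ _
        apply mul_le_mul_of_nonneg_left _ (bin_nonneg hr0 hr1 _)
        by_cases h2 : Hit μ' W₂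
        · obtain ⟨T, hT, hTW⟩ := h2
          rw [if_pos (good_hit μ ℓ W₁ T W₂ hT hTW), if_pos ⟨T, hT, hTW⟩]
        · rw [if_neg h2]
          split_ifs <;> norm_num
      have hih := ih (ℓ / 2) hℓ' μ' (good_nonneg μ hμ0 ℓ W₁) (good_size μ ℓ W₁)
        (good_spread μ hμ0 hspread ℓ W₁)
      have hmass0 : 0 ≤ ∑ T, μ' T := Finset.sum_nonneg fun T _ => good_nonneg μ hμ0 ℓ W₁ T
      have hbad0 := bad_nonneg μ hμ0 ℓ W₁
      rw [mass_split μ ℓ W₁, add_mul]
      have h3 : (∑ T, good μ ℓ W₁ T) * A ≤ 1 / 2 - (1 / 2) ^ (ℓ / 2 + 1) :=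
        (mul_le_mul_of_nonneg_left hAA' hmass0).trans hih
      have h4 : bad μ ℓ W₁ * A ≤ bad μ ℓ W₁ := by
        calc _ ≤ bad μ ℓ W₁ * 1 := mul_le_mul_of_nonneg_left hA1 hbad0
          _ = _ := mul_one _
      linarith
    refine (Finset.sum_le_sum fun W₁ _ => hA W₁).trans ?_
    have hkey := key_lemma μ ha hδ hδ1 hμ0 hsize hspread
    have h5 : ∑ W₁ : Finset X, bin δ W₁ * ((1 / 2 - (1 / 2) ^ (ℓ / 2 + 1)) + bad μ ℓ W₁) =
        (1 / 2 - (1 / 2) ^ (ℓ / 2 + 1)) + ∑ W₁ : Finset X, bin δ W₁ * bad μ ℓ W₁ := by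
      simp only [mul_add, Finset.sum_add_distrib]
      rw [← Finset.sum_mul, bin_sum, one_mul]
    rw [h5]
    have h6 : ((1 : ℝ) / 2) ^ ℓ ≤ (1 / 2) ^ (ℓ / 2 + 1) :=
      pow_le_pow_of_le_one (by norm_num) (by norm_num) (by omega)
    have h7 : ((1 : ℝ) / 2) ^ (ℓ + 1) = (1 / 2) ^ ℓ * (1 / 2) := pow_succ _ _
    have h8 : ((1 : ℝ) / 2) ^ (ℓ + 2) = (1 / 2) ^ ℓ * (1 / 4) := by
      rw [pow_add]
      norm_num
    have h9 : (0 : ℝ) ≤ (1 / 2) ^ ℓ := by positivity
    rw [h8] at hkey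
    rw [h7]
    linarith

/-- **The spread lemma.** -/
theorem spread_lemma {a p : ℝ} {ℓ : ℕ} (ha : 0 ≤ a) (hp1 : p ≤ 1)
    (hp : min 1 (16 * a * ((Nat.log 2 ℓ : ℝ) + 1)) ≤ p)
    (hμ0 : ∀ S, 0 ≤ μ S) (hsize : ∀ S, μ S ≠ 0 → S.card ≤ ℓ) (hmass : ∑ S, μ S = 1)
    (hspread : ∀ T : Finset X, T.Nonempty →
      ∑ S ∈ univ.filter (fun S => T ⊆ S), μ S ≤ a ^ T.card) :
    1 / 2 ≤ ∑ W : Finset X, bin p W * (if Hit μ W then 1 else 0) := by
  have hex : ∃ S, μ S ≠ 0 := by
    by_contra h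
    push Not at h
    simp [h] at hmass
  obtain ⟨S₀, hS₀⟩ := hex
  set R := Nat.log 2 ℓ + 1 with hR
  have hRpos : (1 : ℝ) ≤ (R : ℝ) := by
    rw [hR]
    push_cast
    have : (0 : ℝ) ≤ (Nat.log 2 ℓ : ℝ) := Nat.cast_nonneg _
    linarith
  have hcast : (R : ℝ) = (Nat.log 2 ℓ : ℝ) + 1 := by rw [hR]; push_cast; rfl
  by_cases hcase : 1 ≤ 16 * a * (R : ℝ)
  · -- the density is one
    rw [← hcast, min_eq_left hcase] at hp
    have hp' : p = 1 := le_antisymm hp1 hp
    subst hp'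
    have h1 : ∀ W : Finset X, W ≠ univ → bin (1 : ℝ) W = 0 := by
      intro W hW
      unfold bin
      have h2 : W.card < Fintype.card X := by
        rw [← Finset.card_univ]
        exact Finset.card_lt_card (Finset.ssubset_univ_iff.mpr hW)
      have h3 : Fintype.card X - W.card ≠ 0 := by omega
      simp [h3]
    have h4 : bin (1 : ℝ) (univ : Finset X) = 1 := by
      unfold bin
      simp
    rw [Finset.sum_eq_single (univ : Finset X)]
    · rw [if_pos ⟨S₀, hS₀, Finset.subset_univ _⟩, h4]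
      norm_num
    · intro W _ hW
      rw [h1 W hW, zero_mul]
    · intro h
      exact absurd (Finset.mem_univ _) h
  · push Not at hcase
    rw [← hcast, min_eq_right hcase.le] at hp
    set δ := 16 * a with hδ
    have hδ0 : 0 ≤ δ := by rw [hδ]; positivity
    have hδ1' : δ < 1 := by
      calc δ = δ * 1 := (mul_one _).symm
        _ ≤ δ * (R : ℝ) := mul_le_mul_of_nonneg_left hRpos hδ0
        _ < 1 := hcase
    set r := 1 - (1 - δ) ^ R with hr
    have hx0 : 0 < (1 - δ) ^ R := pow_pos (by linarith) _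
    have hx1 : (1 - δ) ^ R ≤ 1 := pow_le_one₀ (by linarith) (by linarith)
    have hr0 : 0 ≤ r := by rw [hr]; linarith
    have hr1 : r < 1 := by rw [hr]; linarith
    have hrp : r ≤ p := by
      have h1 : 1 + (R : ℝ) * (-δ) ≤ (1 + (-δ)) ^ R :=
        one_add_mul_le_pow (by linarith) R
      have h2 : (1 + (-δ)) = 1 - δ := by ring
      rw [h2] at h1
      rw [hr]
      nlinarith
    have hiter := main_iter ha hδ1'.le R ℓ (Nat.lt_pow_succ_log_self (by norm_num) ℓ) μ hμ0 hsize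
      hspread
    rw [hmass, one_mul] at hiter
    have h3 : ∑ W : Finset X, bin r W * (if Hit μ W then 0 else 1) +
        ∑ W : Finset X, bin r W * (if Hit μ W then 1 else 0) = 1 := by
      have h6 : ∀ W : Finset X, bin r W * (if Hit μ W then (0 : ℝ) else 1) +
          bin r W * (if Hit μ W then 1 else 0) = bin r W := by
        intro W
        split_ifs <;> ring
      rw [← Finset.sum_add_distrib, Finset.sum_congr rfl (fun W _ => h6 W), bin_sum]
    have h4 := bin_mono hr0 hrp hp1 hr1 (Hit μ) (fun W W' h ⟨S, h1, h2⟩ => ⟨S, h1, h2.trans h⟩)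
    have h5 : (0 : ℝ) ≤ (1 / 2) ^ (ℓ + 1) := by positivity
    linarith

end

end Vale.Agent.P064P
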