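import Vale.Agent.P064P.Spread
import Vale.Agent.P064L.Final

/-!
# From the spread inequality to the threshold of containment

A spread inequality `N(H,F) ≤ N(K_n,F) Q ^ e(F)` for all graphs `F` gives, through the spread lemma
applied to the orbit of `H` under the vertex permutations, that `G(n,p)` contains a copy of `H`
with probability at least `1/2` as soon as `p ≥ 16 Q (log₂ (n choose 2) + 1)`.
-/

set_option linter.unusedSectionVars false
set_option linter.unusedVariables false
set_option linter.unusedDecidableInType false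
set_option linter.unusedFintypeInType false

open Finset
open scoped Classical Nat

namespace Vale.Agent.P064P

noncomputable section

open Vale.Agent.P064L

/-- The probability that the random graph `G(n,p)` has the property `A`. -/
def gnpProb (n : ℕ) (p : ℝ) (A : SimpleGraph (Fin n) → Prop) : ℝ :=
  ∑ G : SimpleGraph (Fin n),
    if A G then p ^ G.edgeSet.ncard * (1 - p) ^ (n.choose 2 - G.edgeSet.ncard) else 0

/-- The possible edges on `n` vertices. -/
abbrev Ed (n : ℕ) := {e : Sym2 (Fin n) // ¬ e.IsDiag}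

variable {n : ℕ}

lemma card_Ed : Fintype.card (Ed n) = n.choose 2 := by
  have h := Sym2.card_subtype_not_diag (α := Fin n)
  rw [Fintype.card_fin] at h
  convert h

/-- The edge set of a graph. -/
def toY (G : SimpleGraph (Fin n)) : Finset (Ed n) := univ.filter fun e => e.1 ∈ G.edgeSet

/-- The graph with a given edge set. -/
def ofY (W : Finset (Ed n)) : SimpleGraph (Fin n) :=
  SimpleGraph.fromEdgeSet {e | ∃ h : ¬ e.IsDiag, (⟨e, h⟩ : Ed n) ∈ W}

lemma mem_toY {G : SimpleGraph (Fin n)} {e : Ed n} : e ∈ toY G ↔ e.1 ∈ G.edgeSet := by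
  simp [toY]

lemma mem_edgeSet_ofY {W : Finset (Ed n)} {e : Ed n} : e.1 ∈ (ofY W).edgeSet ↔ e ∈ W := by
  unfold ofY
  rw [SimpleGraph.edgeSet_fromEdgeSet]
  constructor
  · rintro ⟨⟨h, h2⟩, _⟩
    exact h2
  · intro h
    refine ⟨⟨e.2, h⟩, ?_⟩
    exact e.2

lemma toY_ofY (W : Finset (Ed n)) : toY (ofY W) = W := by
  ext e
  rw [mem_toY, mem_edgeSet_ofY]

lemma ofY_toY (G : SimpleGraph (Fin n)) : ofY (toY G) = G := by
  apply SimpleGraph.edgeSet_injective
  ext e
  constructor
  · intro h
    have h1 : ¬ e.IsDiag := (ofY (toY G)).not_isDiag_of_mem_edgeSet h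
    exact mem_toY.mp (mem_edgeSet_ofY (e := ⟨e, h1⟩).mp h)
  · intro h
    have h1 : ¬ e.IsDiag := G.not_isDiag_of_mem_edgeSet h
    exact mem_edgeSet_ofY (e := ⟨e, h1⟩).mpr (mem_toY.mpr h)

/-- Graphs on `n` vertices are subsets of the possible edges. -/
def graphEquiv : SimpleGraph (Fin n) ≃ Finset (Ed n) where
  toFun := toY
  invFun := ofY
  left_inv := ofY_toY
  right_inv := toY_ofY

lemma card_toY (G : SimpleGraph (Fin n)) : (toY G).card = G.edgeSet.ncard := by
  have h : G.edgeSet = ((toY G).image Subtype.val : Finset (Sym2 (Fin n))) := by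
    ext e
    simp only [Finset.coe_image, Set.mem_image, Finset.mem_coe]
    constructor
    · intro h
      exact ⟨⟨e, G.not_isDiag_of_mem_edgeSet h⟩, mem_toY.mpr h, rfl⟩
    · rintro ⟨e', h, rfl⟩
      exact mem_toY.mp h
  rw [h, Set.ncard_coe_finset, Finset.card_image_of_injective _ Subtype.val_injective]

lemma gnp_eq (p : ℝ) (A : SimpleGraph (Fin n) → Prop) :
    gnpProb n p A = ∑ W : Finset (Ed n), bin p W * (if A (ofY W) then 1 else 0) := by
  unfold gnpProb
  rw [← Equiv.sum_comp (graphEquiv (n := n))]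
  apply Finset.sum_congr rfl
  intro G _
  have h1 : graphEquiv G = toY G := rfl
  rw [h1, ofY_toY]
  unfold bin
  rw [card_Ed, card_toY]
  split_ifs <;> simp

/-- Counting permutations through their restrictions. -/
lemma valid_bound {X W₀ : Type*} [Fintype X] [Fintype W₀] (F₀ : SimpleGraph W₀) (G : SimpleGraph X)
    (a : W₀ → X) (ha : Function.Injective a) (valid : Finset (Equiv.Perm X))
    (hv : ∀ σ ∈ valid, (σ ∘ a) ∈ emb F₀ G) :
    valid.card * (emb F₀ (⊤ : SimpleGraph X)).card ≤ (emb F₀ G).card * (Fintype.card X)! := by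
  let π : Equiv.Perm X → (W₀ → X) := fun σ => σ ∘ a
  set s := (univ.filter fun σ : Equiv.Perm X => π σ = a).card with hs
  have hfib : ∀ b : W₀ → X, Function.Injective b →
      (univ.filter fun σ : Equiv.Perm X => π σ = b).card = s := by
    intro b hb
    obtain ⟨σ₀, hσ₀⟩ := exists_perm_comp a b ha hb
    rw [hs]
    refine Finset.card_bij (fun σ _ => σ₀⁻¹ * σ) ?_ ?_ ?_
    · intro σ hσ
      simp only [mem_filter, mem_univ, true_and] at hσ ⊢
      funext x
      have h1 := congrFun hσ x
      simp only [π, Function.comp_apply] at h1 ⊢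
      rw [Equiv.Perm.mul_apply, h1, ← hσ₀ x]
      simp
    · intro σ₁ _ σ₂ _ h
      exact mul_left_cancel h
    · intro τ hτ
      simp only [mem_filter, mem_univ, true_and] at hτ
      refine ⟨σ₀ * τ, ?_, by simp⟩
      simp only [mem_filter, mem_univ, true_and]
      funext x
      have h1 := congrFun hτ x
      simp only [π, Function.comp_apply] at h1 ⊢
      rw [Equiv.Perm.mul_apply, h1, hσ₀]
  have h1 : (Fintype.card X)! = (emb F₀ (⊤ : SimpleGraph X)).card * s := by
    have h2 : (univ : Finset (Equiv.Perm X)).card =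
        ∑ b ∈ emb F₀ (⊤ : SimpleGraph X), (univ.filter fun σ : Equiv.Perm X => π σ = b).card :=
      Finset.card_eq_sum_card_fiberwise (fun σ _ => by
        refine Finset.mem_coe.mpr (mem_emb.mpr ⟨σ.injective.comp ha, ?_⟩)
        intro x y hxy
        simp only [π, Function.comp_apply, SimpleGraph.top_adj]
        intro h3
        exact hxy.ne (ha (σ.injective h3)))
    rw [Finset.card_univ, Fintype.card_perm] at h2
    rw [h2, Finset.sum_congr rfl (g := fun _ => s), Finset.sum_const, smul_eq_mul]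
    intro b hb
    exact hfib b (mem_emb.mp hb).1
  have h2 : valid.card ≤ (emb F₀ G).card * s := by
    have h3 : valid.card = ∑ b ∈ emb F₀ G, (valid.filter fun σ => π σ = b).card :=
      Finset.card_eq_sum_card_fiberwise (fun σ hσ => Finset.mem_coe.mpr (hv σ (Finset.mem_coe.mp hσ)))
    rw [h3]
    calc _ ≤ ∑ b ∈ emb F₀ G, s := by
          apply Finset.sum_le_sum
          intro b hb
          rw [← hfib b (mem_emb.mp hb).1]
          apply Finset.card_le_card
          intro σ hσ
          simp only [mem_filter, mem_univ, true_and] at hσ ⊢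
          exact hσ.2
      _ = _ := by rw [Finset.sum_const, smul_eq_mul]
  rw [h1]
  calc _ ≤ ((emb F₀ G).card * s) * (emb F₀ (⊤ : SimpleGraph X)).card :=
        Nat.mul_le_mul_right _ h2
    _ = _ := by ring

/-- Embeddings of a graph without isolated vertices into an image of `H` come from `H`. -/
lemma card_emb_map_le {V X W₀ : Type*} [Fintype V] [Fintype X] [Fintype W₀] (H : SimpleGraph V)
    (ι : V ↪ X) (F₀ : SimpleGraph W₀) (hno : ∀ x, ∃ y, F₀.Adj x y) :
    (emb F₀ (H.map ι)).card ≤ (emb F₀ H).card := by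
  apply Finset.card_le_card_of_surjOn (fun ph => ι ∘ ph)
  intro b hb
  obtain ⟨h1, h2⟩ := mem_emb.mp (Finset.mem_coe.mp hb)
  have h3 : ∀ x, ∃ u, ι u = b x := by
    intro x
    obtain ⟨y, hy⟩ := hno x
    have h4 := h2 x y hy
    rw [SimpleGraph.map_adj] at h4
    obtain ⟨u, v, _, hu, _⟩ := h4
    exact ⟨u, hu⟩
  choose ph hph using h3
  refine ⟨ph, Finset.mem_coe.mpr (mem_emb.mpr ⟨?_, ?_⟩), ?_⟩
  · intro x y hxy
    apply h1
    rw [← hph x, ← hph y, hxy]
  · intro x y hxy
    have h4 := h2 x y hxy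
    rw [SimpleGraph.map_adj] at h4
    obtain ⟨u, v, huv, hu, hv⟩ := h4
    have h5 : u = ph x := ι.injective (hu.trans (hph x).symm)
    have h6 : v = ph y := ι.injective (hv.trans (hph y).symm)
    rw [← h5, ← h6]
    exact huv
  · funext x
    exact hph x

/-- **From a spread inequality to containment in the random graph.** -/
theorem prob_of_spread {V : Type*} [Fintype V] (H : SimpleGraph V) (hV : Fintype.card V ≤ n) {Q p : ℝ}
    (hQ0 : 0 ≤ Q)
    (hspr : ∀ (W : Type) [Fintype W] (F : SimpleGraph W),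
      (H.copyCount F : ℝ) ≤ ((⊤ : SimpleGraph (Fin n)).copyCount F : ℝ) * Q ^ F.edgeSet.ncard)
    (hp1 : p ≤ 1) (hp : min 1 (16 * Q * ((Nat.log 2 (n.choose 2) : ℝ) + 1)) ≤ p) :
    1 / 2 ≤ gnpProb n p (fun G => 0 < G.copyCount H) := by
  obtain ⟨ι⟩ := Function.Embedding.nonempty_of_card_le (α := V) (β := Fin n)
    (by rw [Fintype.card_fin]; exact hV)
  set B : SimpleGraph (Fin n) := H.map ι with hB
  let Sσ : Equiv.Perm (Fin n) → Finset (Ed n) := fun σ => toY (B.comap σ)
  have hfact : (0 : ℝ) < ((Fintype.card (Fin n))! : ℝ) := by exact_mod_cast Nat.factorial_pos _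
  let μ : Finset (Ed n) → ℝ := fun S =>
    ((univ.filter fun σ : Equiv.Perm (Fin n) => Sσ σ = S).card : ℝ) / ((Fintype.card (Fin n))! : ℝ)
  have hμ0 : ∀ S, 0 ≤ μ S := fun S => div_nonneg (Nat.cast_nonneg _) hfact.le
  have hsize : ∀ S, μ S ≠ 0 → S.card ≤ n.choose 2 := by
    intro S _
    rw [← card_Ed (n := n)]
    exact Finset.card_le_univ S
  have hsum : ∀ (P : Finset (Ed n) → Prop), ∑ S ∈ univ.filter P, μ S =
      ((univ.filter fun σ : Equiv.Perm (Fin n) => P (Sσ σ)).card : ℝ) /
        ((Fintype.card (Fin n))! : ℝ) := by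
    intro P
    simp only [μ]
    rw [← Finset.sum_div]
    congr 1
    have h1 : (univ.filter fun σ : Equiv.Perm (Fin n) => P (Sσ σ)).card =
        ∑ S ∈ univ.filter P, ((univ.filter fun σ : Equiv.Perm (Fin n) => P (Sσ σ)).filter
          fun σ => Sσ σ = S).card :=
      Finset.card_eq_sum_card_fiberwise (fun σ hσ => by
        have := (Finset.mem_filter.mp (Finset.mem_coe.mp hσ)).2
        exact Finset.mem_coe.mpr (Finset.mem_filter.mpr ⟨Finset.mem_univ _, this⟩))
    rw [h1]
    push_cast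
    apply Finset.sum_congr rfl
    intro S hS
    have hS' := (Finset.mem_filter.mp hS).2
    congr 2
    ext σ
    simp only [Finset.mem_filter, Finset.mem_univ, true_and]
    constructor
    · intro h
      exact ⟨h ▸ hS', h⟩
    · exact fun h => h.2
  have hmass : ∑ S, μ S = 1 := by
    have h1 := hsum (fun _ => True)
    simp only [Finset.filter_true] at h1
    rw [h1, Finset.card_univ, Fintype.card_perm]
    exact div_self hfact.ne'
  have hspread : ∀ T : Finset (Ed n), T.Nonempty →
      ∑ S ∈ univ.filter (fun S => T ⊆ S), μ S ≤ Q ^ T.card := by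
    intro T hT
    have hs := hsum (fun S => T ⊆ S)
    have hs' : ∑ S ∈ univ.filter (fun S => T ⊆ S), μ S =
        ((univ.filter fun σ : Equiv.Perm (Fin n) => T ⊆ Sσ σ).card : ℝ) /
          ((Fintype.card (Fin n))! : ℝ) := by
      convert hs
    rw [hs', div_le_iff₀ hfact]
    set F := ofY T with hF
    set F₀ := F.induce F.support with hF₀
    have hno : ∀ x, ∃ y, F₀.Adj x y := by
      rintro ⟨x, y, hxy⟩
      have hxy' : F.Adj x y := hxy
      have hyx' : F.Adj y x := hxy'.symm
      exact ⟨⟨y, x, hyx'⟩, hxy'⟩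
    have hedges : F₀.edgeSet.ncard = T.card := by
      rw [hF₀, Vale.Agent.P064.edges_support, hF, ← card_toY, toY_ofY]
    have h1 := hspr F.support F₀
    rw [hedges] at h1
    have h2 := valid_bound F₀ B (Subtype.val : F.support → Fin n) Subtype.val_injective
      (univ.filter fun σ : Equiv.Perm (Fin n) => T ⊆ Sσ σ) (by
        intro σ hσ
        have hσ' := (Finset.mem_filter.mp hσ).2
        refine mem_emb.mpr ⟨σ.injective.comp Subtype.val_injective, ?_⟩
        intro x y hxy
        have h3 : F.Adj x.1 y.1 := hxy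
        have h4 : (s(x.1, y.1)) ∈ F.edgeSet := h3
        have h5 : ¬ (s(x.1, y.1)).IsDiag := F.not_isDiag_of_mem_edgeSet h4
        have h6 : (⟨s(x.1, y.1), h5⟩ : Ed n) ∈ T := mem_edgeSet_ofY.mp h4
        have h7 := mem_toY.mp (hσ' h6)
        exact h7)
    have h3 := card_emb_map_le H ι F₀ hno
    have haut : 0 < Nat.card (F₀ ≃g F₀) :=
      Nat.card_pos_iff.mpr ⟨⟨SimpleGraph.Iso.refl⟩, inferInstance⟩
    have hautR : (0 : ℝ) < (Nat.card (F₀ ≃g F₀) : ℝ) := by exact_mod_cast haut
    have h4 : ((emb F₀ H).card : ℝ) = (H.copyCount F₀ : ℝ) * (Nat.card (F₀ ≃g F₀) : ℝ) := by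
      rw [← labelled_eq_card_emb, Vale.Agent.P064.labelled_eq]
      push_cast
      rfl
    have h5 : ((emb F₀ (⊤ : SimpleGraph (Fin n))).card : ℝ) =
        ((⊤ : SimpleGraph (Fin n)).copyCount F₀ : ℝ) * (Nat.card (F₀ ≃g F₀) : ℝ) := by
      rw [← labelled_eq_card_emb, Vale.Agent.P064.labelled_eq]
      push_cast
      rfl
    have h6 : ((emb F₀ H).card : ℝ) ≤ ((emb F₀ (⊤ : SimpleGraph (Fin n))).card : ℝ) * Q ^ T.card := by
      rw [h4, h5]
      calc _ ≤ (((⊤ : SimpleGraph (Fin n)).copyCount F₀ : ℝ) * Q ^ T.card) *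
            (Nat.card (F₀ ≃g F₀) : ℝ) := mul_le_mul_of_nonneg_right h1 hautR.le
        _ = _ := by ring
    have hpos : 0 < (emb F₀ (⊤ : SimpleGraph (Fin n))).card := by
      apply Finset.card_pos.mpr
      refine ⟨Subtype.val, mem_emb.mpr ⟨Subtype.val_injective, ?_⟩⟩
      intro x y hxy
      simp only [SimpleGraph.top_adj]
      intro h
      exact hxy.ne (Subtype.val_injective h)
    have hposR : (0 : ℝ) < ((emb F₀ (⊤ : SimpleGraph (Fin n))).card : ℝ) := by exact_mod_cast hpos
    have h7 : (((univ.filter fun σ : Equiv.Perm (Fin n) => T ⊆ Sσ σ).card : ℝ)) *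
        ((emb F₀ (⊤ : SimpleGraph (Fin n))).card : ℝ) ≤
        ((emb F₀ B).card : ℝ) * ((Fintype.card (Fin n))! : ℝ) := by exact_mod_cast h2
    have h8 : ((emb F₀ B).card : ℝ) ≤ ((emb F₀ H).card : ℝ) := by exact_mod_cast h3
    have h9 : (((univ.filter fun σ : Equiv.Perm (Fin n) => T ⊆ Sσ σ).card : ℝ)) *
        ((emb F₀ (⊤ : SimpleGraph (Fin n))).card : ℝ) ≤
        (Q ^ T.card * ((Fintype.card (Fin n))! : ℝ)) *
          ((emb F₀ (⊤ : SimpleGraph (Fin n))).card : ℝ) := by
      calc _ ≤ _ := h7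
        _ ≤ (((emb F₀ (⊤ : SimpleGraph (Fin n))).card : ℝ) * Q ^ T.card) *
              ((Fintype.card (Fin n))! : ℝ) :=
            mul_le_mul_of_nonneg_right (h8.trans h6) hfact.le
        _ = _ := by ring
    exact le_of_mul_le_mul_right h9 hposR
  have hmain := spread_lemma μ hQ0 hp1 hp hμ0 hsize hmass (fun T hT => by convert hspread T hT)
  rw [gnp_eq]
  refine hmain.trans ?_
  have hp0 : 0 ≤ p := by
    refine le_trans (le_min zero_le_one ?_) hp
    have : (0 : ℝ) ≤ (Nat.log 2 (n.choose 2) : ℝ) := Nat.cast_nonneg _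
    positivity
  apply Finset.sum_le_sum
  intro W _
  by_cases hW : Hit μ W
  · rw [if_pos hW]
    obtain ⟨S, hS, hSW⟩ := hW
    have h1 : (univ.filter fun σ : Equiv.Perm (Fin n) => Sσ σ = S).Nonempty := by
      by_contra h
      rw [Finset.not_nonempty_iff_eq_empty] at h
      apply hS
      simp only [μ]
      rw [h]
      simp
    obtain ⟨σ, hσ⟩ := h1
    have hσ' := (Finset.mem_filter.mp hσ).2
    have h2 : 0 < (ofY W).copyCount H := by
      rw [SimpleGraph.copyCount_pos]
      refine ⟨⟨⟨fun v => σ⁻¹ (ι v), ?_⟩, ?_⟩⟩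
      · intro u v huv
        have h3 : B.Adj (ι u) (ι v) := (SimpleGraph.map_adj _ _ _ _).mpr ⟨u, v, huv, rfl, rfl⟩
        have h4 : (B.comap σ).Adj (σ⁻¹ (ι u)) (σ⁻¹ (ι v)) := by
          have e1 : ∀ x, σ (σ⁻¹ x) = x := fun x => by simp
          simp only [SimpleGraph.comap_adj, e1]
          exact h3
        have h5 : s(σ⁻¹ (ι u), σ⁻¹ (ι v)) ∈ (B.comap σ).edgeSet := h4
        have h6 : ¬ (s(σ⁻¹ (ι u), σ⁻¹ (ι v))).IsDiag := (B.comap σ).not_isDiag_of_mem_edgeSet h5
        have h7 : (⟨s(σ⁻¹ (ι u), σ⁻¹ (ι v)), h6⟩ : Ed n) ∈ S := by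
          rw [← hσ']
          exact mem_toY.mpr h5
        exact mem_edgeSet_ofY.mpr (hSW h7)
      · intro u v huv
        exact ι.injective (σ⁻¹.injective huv)
    rw [if_pos h2]
  · rw [if_neg hW]
    by_cases h2 : 0 < (ofY W).copyCount H
    · rw [if_pos h2]
      simp only [mul_zero, mul_one]
      exact bin_nonneg hp0 hp1 W
    · rw [if_neg h2]

end

end Vale.Agent.P064P
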